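import Vale.Agent.P224.R2.H581.BoxF
import Vale.Agent.P224.R2.H178.WO2
import Vale.Agent.P224.R2.H742.NearO
import Vale.Agent.P224.R2.H176.G.Glue0

/-!
The near law in odd dimension in the small box, with the numbers of one row.
-/

namespace Vale.Agent.P224.R2.H581

open MeasureTheory Set Filter Function Real Module Matrix Vale.Agent.P224 Vale.Agent.P224.FV
  Vale.Agent.P224.R2.H925 Vale.Agent.P224.R2.H582 Vale.Agent.P224.R2.H728
open Vale.Agent.P224.SM2 Vale.Agent.P224.R2.H820 Vale.Agent.P224.R2.H424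
  Vale.Agent.P224.R2.H494.ZT Vale.Agent.P224.R2.H355 Vale.Agent.P224.R2.H742
  Vale.Agent.P224.R2.H178 Vale.Agent.P224.R2.H176
open scoped RealInnerProductSpace Topology ContDiff Manifold ENNReal

set_option linter.unusedSectionVars false

variable {V W M : Type*} [NormedAddCommGroup V] [InnerProductSpace ℝ V] [FiniteDimensional ℝ V]
  [NormedAddCommGroup W] [InnerProductSpace ℝ W] [FiniteDimensional ℝ W]
  [TopologicalSpace M] [ChartedSpace V M]
  [MeasurableSpace V] [BorelSpace V] [MeasurableSpace M] [BorelSpace M]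
  [MeasurableSpace W] [BorelSpace W] [IsManifold 𝓘(ℝ, V) ∞ M]
  [CompactSpace M] [T2Space M]

/-- the conditions of the weights on both intervals -/
structure OddAll (m : ℕ) (d : ℝ) (l' : ℝ → ℝ) (u : H925.St) : Prop where
  low : ∀ T ∈ Ioo (0 : ℝ) 1, T ≤ 1 / 2 →
    OddAt m d (K0 ((m : ℝ) / 2) (cn m)) (9 / (5 * (m : ℝ))) (31 / 10) (7 / (5 * (m : ℝ)))
      (xiO m) (lamP 17 17 17 17 17) l' u T
  up : ∀ T ∈ Ioo (0 : ℝ) 1, 1 / 2 < T →
    OddUp m d (K0 ((m : ℝ) / 2) (cn m)) (7 / (5 * (m : ℝ))) l' u T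

/-- **The near law in odd dimension in the small box, from one row of the tables.** -/
theorem near_row [Nonempty M] {m : ℕ} {q : ORow} {rel : ℚ} (hrow : orowOK2 q = true)
    (hok : okF rel q = true) (hmq : q.m = m)
    (hV : finrank ℝ V = m) (hW : finrank ℝ W = finrank ℝ V + 2)
    {F : M → W} (hF : SphImm V F) (hmin : ∀ x n, IsUnitNormal V F x n → meanCurv V F x n = 0)
    {N : M → W} (hNs : ContMDiff 𝓘(ℝ, V) 𝓘(ℝ, W) ∞ N) (hN : ∀ x, IsUnitNormal V F x (N x))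
    {ι : Type*} [Fintype ι] [DecidableEq ι] (b : OrthonormalBasis ι ℝ W) {j : ι → ℝ}
    (h0 : T0Data (nrm (volM V F)) (m : ℝ) (co b F) (co b N))
    (hLS : LSq (nrm (volM V F)) (diagonal j) (co b F) (co b N))
    {L : ℝ} (hL : L * ((m : ℝ) ^ 2 - 1) = 4) (s : ZSol ((m : ℝ) / 2) L)
    {d r : ℝ} (hr : 0 < r) (hr2 : r ^ 2 = (m : ℝ) ^ 2 - 1) (hd : d = 2 / r)
    (hh1 : hh (nrm (volM V F)) (diagonal j) (co b F) (co b N) ≤ 40 / (m : ℝ) ^ 3)
    (hfd : √(fro (De (nrm (volM V F)) (co b F) (co b N))) ≤ 6 / (5 * (m : ℝ)))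
    {rl : ℝ} {l' : ℝ → ℝ} (hall : OddAll m d l' (uZ s))
    (htail : H484.AbsTail (volM V F) m F N l'
      (rl * hh (nrm (volM V F)) (diagonal j) (co b F) (co b N)))
    (hrel : (1 + 7 / (5 * (m : ℝ))) * rl ≤ rel) :
    NearAtOdd V F N d (s.P 1) (JE s 0) ((m + 1) * (2 * m - 1) / r) (7 / r) (uZ s) := by
  subst hmq
  have hm : 17 ≤ q.m := by
    simp only [orowOK2, Bool.and_eq_true, decide_eq_true_eq] at hrow
    exact hrow.1.1
  have hmR : (17 : ℝ) ≤ q.m := by exact_mod_cast hm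
  have hθ : 9 / (5 * (q.m : ℝ)) ≤ 1 := by
    rw [div_le_one (by linarith)]
    linarith
  rw [← boxF_h1 q rel] at hh1
  rw [← boxF_d1 q rel] at hfd
  have hu := boxF_u hok h0 hLS hh1 hfd
  obtain ⟨w1, w2, w3, w4⟩ := orow_sound2 (lam := lamP 17 17 17 17 17) hrow (fun _ _ => rfl)
  refine near_odd hm hV hW hF hmin hNs hN b h0 hLS hL s hr hr2 hd (okF_box hok) (okF_C hok)
    hh1 hfd hu (θ := 9 / (5 * (q.m : ℝ))) (κ := 31 / 10) (σ := ((H627.sgQ q.m : ℚ) : ℝ))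
    (g1 := 7 / (5 * (q.m : ℝ))) (T1 := 1 / 2) (rl := rl) (ξ := xiO q.m)
    (lam := lamP 17 17 17 17 17) (l' := l')
    hθ (by norm_num) (by positivity) ?_ rfl ⟨by norm_num, by norm_num⟩ hall.low hall.up
    w1 w2 ?_ ?_ htail hrel
  · exact_mod_cast H627.sgQ_nonneg q.m
  · rw [boxF_V0]
    exact mul_le_mul_of_nonneg_left w3 (by linarith)
  · rw [boxF_V1]
    exact mul_le_mul_of_nonneg_left w4 (by linarith)

/-- the input of the final glue in odd dimension from one row of the tables -/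
theorem hodd_row [Nonempty M] {m : ℕ} {q : ORow} {rel : ℚ} (hrow : orowOK2 q = true)
    (hok : okF rel q = true) (hmq : q.m = m)
    (hV : finrank ℝ V = m) (hW : finrank ℝ W = finrank ℝ V + 2)
    {F : M → W} (hF : SphImm V F) (hmin : ∀ x n, IsUnitNormal V F x n → meanCurv V F x n = 0)
    {L : ℝ} (hL : L * ((m : ℝ) ^ 2 - 1) = 4) (s : ZSol ((m : ℝ) / 2) L)
    {d r : ℝ} (hr : 0 < r) (hr2 : r ^ 2 = (m : ℝ) ^ 2 - 1) (hd : d = 2 / r)
    {rl ν : ℝ} {l' : ℝ → ℝ} (hall : OddAll m d l' (uZ s))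
    (htail : ∀ (N : M → W) (b : OrthonormalBasis (Fin (finrank ℝ W)) ℝ W)
      (j : Fin (finrank ℝ W) → ℝ), NearData V F N b j ν →
      hh (nrm (volM V F)) (Matrix.diagonal j) (co b F) (co b N) ≤ 40 / (m : ℝ) ^ 3 →
      √(fro (De (nrm (volM V F)) (co b F) (co b N))) ≤ 6 / (5 * (m : ℝ)) →
      H484.AbsTail (volM V F) m F N l'
        (rl * hh (nrm (volM V F)) (Matrix.diagonal j) (co b F) (co b N)))
    (hrel : (1 + 7 / (5 * (m : ℝ))) * rl ≤ rel) :
    ∀ (N : M → W) (b : OrthonormalBasis (Fin (finrank ℝ W)) ℝ W)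
      (j : Fin (finrank ℝ W) → ℝ), NearData V F N b j ν →
      hh (nrm (volM V F)) (Matrix.diagonal j) (co b F) (co b N) ≤ 40 / (m : ℝ) ^ 3 →
      √(fro (De (nrm (volM V F)) (co b F) (co b N))) ≤ 6 / (5 * (m : ℝ)) →
      NearAtOdd V F N d (s.P 1) (JE s 0) ((m + 1) * (2 * m - 1) / r) (7 / r) (uZ s) := by
  intro N b j hN hh1 hfd
  have h0 := hN.t0
  rw [hV] at h0
  exact near_row hrow hok hmq hV hW hF hmin hN.smooth hN.unit b h0 hN.lsq hL s hr hr2 hd hh1 hfd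
    hall (htail N b j hN hh1 hfd) hrel

end Vale.Agent.P224.R2.H581
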