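import Vale.Agent.P224.R2.H178.WO
import Vale.Agent.P224.R2.H742.NearC
import Vale.Agent.P224.R2.H728.Nd

/-!
The box of the law in odd dimension as one function of the dimension.
-/

namespace Vale.Agent.P224.R2.H581

open MeasureTheory Set Filter Function Real Finset Matrix Vale.Agent.P224.R2.H582
  Vale.Agent.P224.R2.H728 Vale.Agent.P224.R2.H742 Vale.Agent.P224.R2.H178
  Vale.Agent.P224.R2.H627 Vale.Agent.P224.R2.H579

set_option linter.unusedSectionVars false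

/-- rounding up -/
def upq (q : ℚ) : ℚ := ((q.num.toNat * 10 ^ 12 / q.den + 1 : ℕ) : ℚ) / 10 ^ 12

/-- rounding down -/
def dnq (q : ℚ) : ℚ := ((q.num.toNat * 10 ^ 12 / q.den : ℕ) : ℚ) / 10 ^ 12

/-- upper bound of the square root of a small number -/
def sqh (q : ℚ) : ℚ := bhi (q * 10 ^ 8) / 10 ^ 4

/-- the bound of the defect -/
def hF (m : ℚ) : ℚ := 40 / m ^ 3
/-- the bound of the deviation -/
def dF (m : ℚ) : ℚ := 6 / (5 * m)
/-- the bound of the weights -/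
def ρF (m : ℚ) : ℚ := bhi (1 + (m + 2) * (dF m / (1 - dF m)))
/-- the width of the weights -/
def ωF (m : ℚ) : ℚ := (m + 2) * ((dF m + hF m) / (1 - dF m))
/-- the bound of the trace term -/
def TF (m : ℚ) : ℚ := sqh (dF m ^ 2 * (m + 2 + dF m * ωF m) / (m + 1) ^ 2)
/-- the coefficient of the bound of the mean normal -/
def LF (m : ℚ) : ℚ :=
  dnq (m / (m + 1) - (m - 4) / ((m + 1) * (m + 4)) - TF m / 2
    - 2 * EwQ (dF m) (hF m) * (m + 2) / (m + 1))
/-- the bound of the mean normal -/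
def KF (m : ℚ) : ℚ := upq ((1 + ρF m) / LF m)
/-- the root -/
def rF (m : ℚ) : ℚ := sqh (kqQ m * hF m)
/-- the linear coefficient of the quadratic inequality of the third moments -/
def aF (m : ℚ) : ℚ := upq (2 * hF m + 8 / (m * (m + 1)) * (KF m * hF m) * (ρF m * ωF m))
/-- the constant coefficient of the quadratic inequality of the third moments -/
def bF (m : ℚ) : ℚ :=
  upq (2 * (kqQ m * hF m + (KF m * hF m) ^ 2 / (m + 2))
    + 8 / (m * (m + 1)) * (KF m * hF m)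
      * (2 * ωF m * (rF m + (KF m * hF m) / (m + 2)) + ρF m * hF m))
/-- the bound of the third moments -/
def nF (m : ℚ) : ℚ := upq ((aF m + sqh (aF m ^ 2 + 4 * bF m * (m + 2))) / (2 * (m + 2)))

/-- **The box as a function of the row.** -/
def boxF (r : ORow) (rel : ℚ) : BoxQ where
  m := r.m
  δ := upq (dQ r.m)
  h1 := hF r.m
  d1 := dF r.m
  ρ := ρF r.m
  Ke := KF r.m
  η := 1 / 10
  b1 := upq (b1Q r.m)
  kk := upq (kkQ r.m)
  V0 := r.v0 * (1 - 9 / (5 * r.m))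
  V1 := r.w1 * (1 - 9 / (5 * r.m))
  σ := sgQ r.m
  w2 := upq (w2Q r.m)
  rel := rel
  r0 := upq (r0Q r.m)
  n := nF r.m
  r := rF r.m

/-- the bound of the mean normal on the box -/
def elF (m : ℚ) : ElQ := ⟨dF m, hF m, 1 + ρF m, LF m⟩

/-- **the checker of one row** -/
def okF (rel : ℚ) (r : ORow) : Bool :=
  boxOK (boxF r rel) && boxC r.m (boxF r rel) && e7OK r.m (elF r.m) (ρF r.m) (TF r.m)
    && decide (0 < LF r.m) && decide (1 + ρF r.m ≤ KF r.m * LF r.m)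

lemma okF_box {rel : ℚ} {r : ORow} (h : okF rel r = true) : boxOK (boxF r rel) = true := by
  simp only [okF, Bool.and_eq_true, decide_eq_true_eq] at h
  exact h.1.1.1.1

lemma okF_C {rel : ℚ} {r : ORow} (h : okF rel r = true) : boxC r.m (boxF r rel) = true := by
  simp only [okF, Bool.and_eq_true, decide_eq_true_eq] at h
  exact h.1.1.1.2

section

variable {ι Ω : Type*} [Fintype ι] [DecidableEq ι] [MeasurableSpace Ω] {μ : Measure Ω}
  {x N : ι → Ω → ℝ} {j : ι → ℝ}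

lemma boxF_h1 (r : ORow) (rel : ℚ) : (((boxF r rel).h1 : ℚ) : ℝ) = 40 / (r.m : ℝ) ^ 3 := by
  change ((40 / (r.m : ℚ) ^ 3 : ℚ) : ℝ) = _
  push_cast
  ring

lemma boxF_d1 (r : ORow) (rel : ℚ) : (((boxF r rel).d1 : ℚ) : ℝ) = 6 / (5 * (r.m : ℝ)) := by
  change ((6 / (5 * (r.m : ℚ)) : ℚ) : ℝ) = _
  push_cast
  ring

lemma boxF_V0 (r : ORow) (rel : ℚ) :
    (((boxF r rel).V0 : ℚ) : ℝ) = (1 - 9 / (5 * (r.m : ℝ))) * r.v0 := by
  change ((r.v0 * (1 - 9 / (5 * (r.m : ℚ))) : ℚ) : ℝ) = _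
  push_cast
  ring

lemma boxF_V1 (r : ORow) (rel : ℚ) :
    (((boxF r rel).V1 : ℚ) : ℝ) = (1 - 9 / (5 * (r.m : ℝ))) * r.w1 := by
  change ((r.w1 * (1 - 9 / (5 * (r.m : ℚ))) : ℚ) : ℝ) = _
  push_cast
  ring

/-- the bound of the mean normal on the box -/
theorem boxF_u {r : ORow} {rel : ℚ} (hok : okF rel r = true)
    (h : T0Data μ (r.m : ℝ) x N) (hL : LSq μ (diagonal j) x N)
    (hh1 : hh μ (diagonal j) x N ≤ (boxF r rel).h1)
    (hfd : √(fro (De μ x N)) ≤ (boxF r rel).d1) :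
    √(uu μ N) ≤ (boxF r rel).Ke * hh μ (diagonal j) x N := by
  simp only [okF, Bool.and_eq_true, decide_eq_true_eq] at hok
  obtain ⟨⟨⟨_, h2⟩, h3⟩, h4⟩ := hok
  have h0 : T0Data μ (((r.m : ℚ) : ℝ)) x N := by
    rw [Rat.cast_natCast]
    exact h
  have h5 := e7_sound h2 h0 hL hfd hh1
  have h6 : ((elF r.m).L : ℝ) = ((LF r.m : ℚ) : ℝ) := rfl
  have h7 : ((elF r.m).K : ℝ) = 1 + ((ρF r.m : ℚ) : ℝ) := by
    change ((1 + ρF r.m : ℚ) : ℝ) = _
    rw [Rat.cast_add, Rat.cast_one]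
  have h8 : (((boxF r rel).Ke : ℚ) : ℝ) = ((KF r.m : ℚ) : ℝ) := rfl
  rw [h6, h7] at h5
  rw [h8]
  have h3' : (0 : ℝ) < ((LF r.m : ℚ) : ℝ) := by exact_mod_cast h3
  have h4' := (Rat.cast_le (K := ℝ)).2 h4
  rw [Rat.cast_mul, Rat.cast_add, Rat.cast_one] at h4'
  have h9 := mul_le_mul_of_nonneg_right h4' (h.hh_nonneg (diagonal j))
  have h10 : ((LF r.m : ℚ) : ℝ) * √(uu μ N)
      ≤ ((LF r.m : ℚ) : ℝ) * (((KF r.m : ℚ) : ℝ) * hh μ (diagonal j) x N) := by
    linarith only [h5, h9]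
  exact le_of_mul_le_mul_left h10 h3'

end

end Vale.Agent.P224.R2.H581
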