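import Vale.Agent.P224.R2.H581.TailB
import Vale.Agent.P224.R2.H355.BlkO
import Vale.Agent.P224.R2.H355.OAbs

/-!
The relative tail in odd dimension from the certificates of a block.
-/

namespace Vale.Agent.P224.R2.H581

open MeasureTheory Set Function Real Module Matrix Vale.Agent.P224 Vale.Agent.P224.FV
  Vale.Agent.P224.R2.H582 Vale.Agent.P224.R2.H484 Vale.Agent.P224.R2.H728
  Vale.Agent.P224.R2.H686 Vale.Agent.P224.R2.H662 Vale.Agent.P224.R2.H876
  Vale.Agent.P224.R2.H869 Vale.Agent.P224.R2.H355 Vale.Agent.P224.R2.H176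
open Vale.Agent.P224.SM2 hiding ker
open Vale.Agent.P224.R2.H470 hiding tg
open scoped Topology RealInnerProductSpace ContDiff Manifold

set_option linter.unusedSectionVars false

section

variable {V W M : Type*} [NormedAddCommGroup V] [InnerProductSpace ℝ V] [FiniteDimensional ℝ V]
  [NormedAddCommGroup W] [InnerProductSpace ℝ W] [FiniteDimensional ℝ W]
  [TopologicalSpace M] [ChartedSpace V M]
  [MeasurableSpace V] [BorelSpace V] [MeasurableSpace M] [BorelSpace M]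
  [MeasurableSpace W] [BorelSpace W] [IsManifold 𝓘(ℝ, V) ∞ M]
  [CompactSpace M] [T2Space M]

/-- the relative tail from a certificate -/
theorem tailK_of [Nonempty M] {B : BlkO} (C : CertO B)
    (hC : rowPok C.Mu.lam C.Mu.eta C.Mu.c1 = true)
    {m : ℕ} (hV : finrank ℝ V = m) (h36 : 36 ≤ m) (hm1 : B.m1 ≤ m) (hm2 : B.m2 = 0 ∨ m ≤ B.m2)
    (hW : finrank ℝ W = finrank ℝ V + 2) {F : M → W} (hF : SphImm V F)
    (hmin : ∀ x n, IsUnitNormal V F x n → meanCurv V F x n = 0) {lT : ℝ → ℝ} (hT : Thr m lT)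
    (habs : ∀ N : M → W, ContMDiff 𝓘(ℝ, V) 𝓘(ℝ, W) ∞ N → (∀ x, IsUnitNormal V F x (N x)) →
      AbsTail (volM V F) m F N lT C.ab) {ν kap rl : ℝ} (hk : kap ≤ C.kap)
    (hr : C.rel ≤ rl) : TailK V F ν m lT kap rl := by
  intro N b j hd hj
  subst hV
  have hNT : Nontrivial W := by
    have : 0 < finrank ℝ W := by omega
    exact Module.finrank_pos_iff.1 this
  have D := nrmData_of_min (by omega) hW hF hmin hd.smooth hd.unit
  have hm0 : (0 : ℝ) ≤ (finrank ℝ V : ℝ) + 1 := by positivity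
  have h1 := C.relTail D b hd.lsq hm1 hm2 (rowP_of hC D h36 (dop b j)) hT.l1 hT.l2
    (habs N hd.smooth hd.unit) fun a => (hj a).trans (mul_le_mul_of_nonneg_right hk hm0)
  exact AbsTail_mono h1 (mul_le_mul_of_nonneg_right hr (hd.t0.hh_nonneg _))

/-- the relative tail from a certificate, with the checked absolute tail -/
theorem tailK_abs [Nonempty M] {B : BlkO} (C : CertO B)
    (hC : rowPok C.Mu.lam C.Mu.eta C.Mu.c1 = true) {x : ℚ}
    (hab : absOKg 200 wR B.m1 x (lcA B.m1) C.ab = true)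
    {m : ℕ} (hx : (x : ℝ) ≤ 1 / m) (hV : finrank ℝ V = m) (h36 : 36 ≤ m) (hm1 : B.m1 ≤ m)
    (hm2 : B.m2 = 0 ∨ m ≤ B.m2)
    (hW : finrank ℝ W = finrank ℝ V + 2) {F : M → W} (hF : SphImm V F)
    (hmin : ∀ x n, IsUnitNormal V F x n → meanCurv V F x n = 0) {lT : ℝ → ℝ} (hT : Thr m lT)
    {ν kap rl : ℝ} (hk : kap ≤ C.kap) (hr : C.rel ≤ rl) : TailK V F ν m lT kap rl :=
  tailK_of C hC hV h36 hm1 hm2 hW hF hmin hT
    (fun _ h1 h2 => absO_min hab B.h17 hm1 hx hV.symm hW hF hmin h1 h2 hT.l1 hT.l2) hk hr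

/-- the checks of a certificate for the box of the tables: `x` is at most the inverse of the largest
dimension -/
def boxTok {B : BlkO} (C : CertO B) (x rl : ℚ) : Bool :=
  rowPok C.Mu.lam C.Mu.eta C.Mu.c1 && absOKg 200 wR B.m1 x (lcA B.m1) C.ab
    && decide (C.rel ≤ rl) && decide (36 ≤ B.m1) && decide (0 ≤ C.kap)
    && decide (1 + 6 * ((B.m1 : ℚ) + 2) / (5 * B.m1 - 6) ≤ C.kap * (B.m1 + 1))

/-- the checks of a certificate for the box of the uniform part -/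
def boxUok {B : BlkO} (C : CertO B) (rl : ℚ) : Bool :=
  rowPok C.Mu.lam C.Mu.eta C.Mu.c1 && absOKg 200 wR B.m1 0 (lcA B.m1) C.ab
    && decide (C.rel ≤ rl) && decide (36 ≤ B.m1) && decide (0 ≤ C.kap) && decide (B.m2 = 0)
    && decide (1 + 6 * ((B.m1 : ℚ) + 2) / (B.m1 - 6) ≤ C.kap * (B.m1 + 1))

/-- **the relative tail in the box of the tables from one certificate** -/
theorem tailB_cert [Nonempty M] {B : BlkO} (C : CertO B) {x rl : ℚ} (hC : boxTok C x rl = true)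
    {m : ℕ} (hx : (x : ℝ) ≤ 1 / m) (hV : finrank ℝ V = m) (hm1 : B.m1 ≤ m)
    (hm2 : B.m2 = 0 ∨ m ≤ B.m2) (hW : finrank ℝ W = finrank ℝ V + 2) {F : M → W}
    (hF : SphImm V F) (hmin : ∀ x n, IsUnitNormal V F x n → meanCurv V F x n = 0) {lT : ℝ → ℝ}
    (hT : Thr m lT) {ν h1 : ℝ} : TailB V F ν m lT h1 (6 / (5 * (m : ℝ))) rl := by
  simp only [boxTok, Bool.and_eq_true, decide_eq_true_eq] at hC
  obtain ⟨⟨⟨⟨⟨c1, c2⟩, c3⟩, c4⟩, c5⟩, c6⟩ := hC
  have c6' := (Rat.cast_le (K := ℝ)).2 c6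
  push_cast at c6'
  exact tailB_tab hV (tailK_abs C c1 c2 hx hV (c4.trans hm1) hm1 hm2 hW hF hmin hT le_rfl
    (by exact_mod_cast c3)) (by omega) hm1 (by exact_mod_cast c5) c6'

/-- **the relative tail in the box of the uniform part from one certificate** -/
theorem tailU_cert [Nonempty M] {B : BlkO} (C : CertO B) {rl : ℚ} (hC : boxUok C rl = true)
    {m : ℕ} (hV : finrank ℝ V = m) (hm1 : B.m1 ≤ m)
    (hW : finrank ℝ W = finrank ℝ V + 2) {F : M → W}
    (hF : SphImm V F) (hmin : ∀ x n, IsUnitNormal V F x n → meanCurv V F x n = 0) {lT : ℝ → ℝ}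
    (hT : Thr m lT) {ν h1 : ℝ} : TailB V F ν m lT h1 (6 / (m : ℝ)) rl := by
  simp only [boxUok, Bool.and_eq_true, decide_eq_true_eq] at hC
  obtain ⟨⟨⟨⟨⟨⟨c1, c2⟩, c3⟩, c4⟩, c5⟩, c7⟩, c6⟩ := hC
  have c6' := (Rat.cast_le (K := ℝ)).2 c6
  push_cast at c6'
  exact tailB_uni hV (tailK_abs C c1 c2 (by simp) hV (c4.trans hm1) hm1 (Or.inl c7) hW hF hmin hT
    le_rfl (by exact_mod_cast c3)) (by omega) hm1 (by exact_mod_cast c5) c6'

end

end Vale.Agent.P224.R2.H581
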