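import Vale.Agent.P224.R2.H869.TlBlk
import Vale.Agent.P224.R2.H686.PhiG

/-!
The row of `φ²` for minimal hypersurfaces from the levels of the pointwise certificates.
-/

namespace Vale.Agent.P224.R2.H581

open MeasureTheory Set Function Real Module Matrix Vale.Agent.P224 Vale.Agent.P224.FV
  Vale.Agent.P224.R2.H582 Vale.Agent.P224.R2.H484 Vale.Agent.P224.R2.H728
  Vale.Agent.P224.R2.H686 Vale.Agent.P224.R2.H662 Vale.Agent.P224.R2.H876
  Vale.Agent.P224.R2.H869
open Vale.Agent.P224.SM2 hiding ker
open Vale.Agent.P224.R2.H470 hiding tg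
open scoped Topology RealInnerProductSpace ContDiff Manifold

set_option linter.unusedSectionVars false

/-- the levels `(κ, c)`: `E φ² ≤ c E a` for `Λ² ≤ κ` -/
def phL : List (ℚ × ℚ) :=
  [(1 / 100, 13 / 5), (1 / 50, 3), (3 / 100, 171 / 50), (1 / 25, 97 / 25), (1 / 20, 221 / 50),
    (67 / 1000, 141 / 25), (17 / 200, 747 / 100), (9 / 100, 803 / 100), (21 / 200, 979 / 100),
    (11 / 100, 1041 / 100), (3 / 25, 1173 / 100)]

/-- the check of the constant of the row of `φ²` -/
def rowPok (lam eta C1 : ℚ) : Bool :=
  decide (eta ≤ 1 / 50) && phL.any fun k => decide (lam ^ 2 ≤ k.1) && decide (k.2 ≤ C1)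

variable {V W M : Type*} [NormedAddCommGroup V] [InnerProductSpace ℝ V] [FiniteDimensional ℝ V]
  [NormedAddCommGroup W] [InnerProductSpace ℝ W] [FiniteDimensional ℝ W]
  [TopologicalSpace M] [ChartedSpace V M]
  [MeasurableSpace V] [BorelSpace V] [MeasurableSpace M] [BorelSpace M]
  [MeasurableSpace W] [BorelSpace W] [CompactSpace M]

/-- **the row of `φ²`** -/
theorem rowP_of {lam eta C1 : ℚ} (h : rowPok lam eta C1 = true) {F N : M → W}
    (D : NrmData V F N) (hm : 36 ≤ finrank ℝ V) (J : W →L[ℝ] W) :
    RowP V F N J lam eta C1 := by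
  intro d hH
  have hprob := D.prob
  simp only [rowPok, Bool.and_eq_true, decide_eq_true_eq, List.any_eq_true] at h
  obtain ⟨he, k, hk, hl, hc⟩ := h
  have he' : (eta : ℝ) ≤ 1 / 50 := by
    have := (Rat.cast_le (K := ℝ)).2 he
    push_cast at this
    exact this
  have hH' := hH.trans he'
  have hl' : ((lam : ℚ) : ℝ) ^ 2 ≤ ((k.1 : ℚ) : ℝ) := by exact_mod_cast hl
  have hc' : ((k.2 : ℚ) : ℝ) ≤ ((C1 : ℚ) : ℝ) := by exact_mod_cast hc
  have h0 : 0 ≤ ∫ x, aa J F N x ∂(nrm (volM V F)) := integral_nonneg fun x => sq_nonneg _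
  have key : ∫ x, ph (finrank ℝ V) J F x ^ 2 ∂(nrm (volM V F))
      ≤ ((k.2 : ℚ) : ℝ) * ∫ x, aa J F N x ∂(nrm (volM V F)) := by
    simp only [phL, List.mem_cons, List.not_mem_nil, or_false] at hk
    rcases hk with rfl | rfl | rfl | rfl | rfl | rfl | rfl | rfl | rfl | rfl | rfl
    · have := d.P01 hm (by push_cast at hl'; exact hl') hH'
      push_cast
      exact this
    · have := d.P02 hm (by push_cast at hl'; exact hl') hH'
      push_cast
      exact this
    · have := d.P03 hm (by push_cast at hl'; exact hl') hH'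
      push_cast
      exact this
    · have := d.P04 hm (by push_cast at hl'; exact hl') hH'
      push_cast
      exact this
    · have := d.P05 hm (by push_cast at hl'; exact hl') hH'
      push_cast
      exact this
    · have := d.P067 hm (by push_cast at hl'; exact hl') hH'
      push_cast
      exact this
    · have := d.P085 hm (by push_cast at hl'; exact hl') hH'
      push_cast
      exact this
    · have := d.P09 hm (by push_cast at hl'; exact hl') hH'
      push_cast
      exact this
    · have := d.P105 hm (by push_cast at hl'; exact hl') hH'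
      push_cast
      exact this
    · have := d.P11 hm (by push_cast at hl'; exact hl') hH'
      push_cast
      exact this
    · have := d.P12 hm (by push_cast at hl'; exact hl') hH'
      push_cast
      exact this
  exact key.trans (mul_le_mul_of_nonneg_right hc' h0)

end Vale.Agent.P224.R2.H581
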