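import Vale.Agent.P224.R2.H581.RelOdd
import Vale.Agent.P224.R2.H355.Co400
import Vale.Agent.P224.R2.H535.OddB

/-!
The relative tail of the uniform part, dimensions from 400 on.
-/

namespace Vale.Agent.P224.R2.H581

open MeasureTheory Set Function Real Module Matrix Vale.Agent.P224 Vale.Agent.P224.FV
  Vale.Agent.P224.R2.H582 Vale.Agent.P224.R2.H484 Vale.Agent.P224.R2.H728
  Vale.Agent.P224.R2.H686 Vale.Agent.P224.R2.H662 Vale.Agent.P224.R2.H876
  Vale.Agent.P224.R2.H869 Vale.Agent.P224.R2.H355 Vale.Agent.P224.R2.H176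
open scoped Topology RealInnerProductSpace ContDiff Manifold

set_option linter.unusedSectionVars false

lemma ok400 : boxUok Co400.cert (7 / 500) = true := by decide +kernel

section

variable {V W M : Type*} [NormedAddCommGroup V] [InnerProductSpace ℝ V] [FiniteDimensional ℝ V]
  [NormedAddCommGroup W] [InnerProductSpace ℝ W] [FiniteDimensional ℝ W]
  [TopologicalSpace M] [ChartedSpace V M]
  [MeasurableSpace V] [BorelSpace V] [MeasurableSpace M] [BorelSpace M]
  [MeasurableSpace W] [BorelSpace W] [IsManifold 𝓘(ℝ, V) ∞ M]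
  [CompactSpace M] [T2Space M]

/-- the relative tail from dimension `400` on, for every threshold function of the law -/
theorem tailU_400 [Nonempty M] {m : ℕ} (hV : finrank ℝ V = m) (hm : 400 ≤ m)
    (hW : finrank ℝ W = finrank ℝ V + 2) {F : M → W} (hF : SphImm V F)
    (hmin : ∀ x n, IsUnitNormal V F x n → meanCurv V F x n = 0) {lT : ℝ → ℝ}
    (hT : Thr m lT) {ν h1 : ℝ} : TailB V F ν m lT h1 (6 / (m : ℝ)) (7 / 500) := by
  have h := tailU_cert (ν := ν) (h1 := h1) Co400.cert ok400 hV hm hW hF hmin hT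
  have e : (((7 / 500 : ℚ)) : ℝ) = 7 / 500 := by norm_num
  rwa [e] at h

end

end Vale.Agent.P224.R2.H581
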