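import Vale.Agent.P224.R2.H581.RowP
import Vale.Agent.P224.R2.H176.G.Glue0

/-!
The relative tail in odd dimension: from the bound of the weights to the small box.
-/

namespace Vale.Agent.P224.R2.H581

open MeasureTheory Set Function Real Module Matrix Vale.Agent.P224 Vale.Agent.P224.FV
  Vale.Agent.P224.R2.H582 Vale.Agent.P224.R2.H484 Vale.Agent.P224.R2.H728
  Vale.Agent.P224.R2.H686 Vale.Agent.P224.R2.H662 Vale.Agent.P224.R2.H876
  Vale.Agent.P224.R2.H869 Vale.Agent.P224.R2.H176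
open Vale.Agent.P224.SM2 hiding ker
open Vale.Agent.P224.R2.H470 hiding tg
open scoped Topology RealInnerProductSpace ContDiff Manifold

set_option linter.unusedSectionVars false

section

variable {V W M : Type*} [NormedAddCommGroup V] [InnerProductSpace ℝ V] [FiniteDimensional ℝ V]
  [NormedAddCommGroup W] [InnerProductSpace ℝ W] [FiniteDimensional ℝ W]
  [TopologicalSpace M] [ChartedSpace V M]
  [MeasurableSpace V] [BorelSpace V] [MeasurableSpace M] [BorelSpace M]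
  [MeasurableSpace W] [BorelSpace W] [IsManifold 𝓘(ℝ, V) ∞ M]
  [CompactSpace M] [T2Space M]

/-- the thresholds of the odd case at the dimension `m` -/
structure Thr (m : ℕ) (lT : ℝ → ℝ) : Prop where
  l1 : ∀ T ∈ Ioo (0 : ℝ) 1, T ≤ 1 / 2 →
    17 * (1 - T ^ 10) * ((1 - 9 / (5 * (m : ℝ))) / (1 + 7 / (5 * (m : ℝ)))) ≤ lT T
  l2 : ∀ T ∈ Ioo (0 : ℝ) 1, 1 / 2 < T → 94 / 5 - 256 / (5 * (m : ℝ)) ≤ lT T
    ∧ (63 / 5 - 146 / (5 * (m : ℝ))) / (1 - T ^ 2) ≤ lT T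

/-- the relative tail at the bound `kap` of the weights -/
def TailK (V : Type*) [NormedAddCommGroup V] [InnerProductSpace ℝ V]
    [FiniteDimensional ℝ V] {W M : Type*}
    [NormedAddCommGroup W] [InnerProductSpace ℝ W] [FiniteDimensional ℝ W]
    [TopologicalSpace M] [ChartedSpace V M]
    [MeasurableSpace V] [BorelSpace V] [MeasurableSpace M] [BorelSpace M]
    [MeasurableSpace W] [BorelSpace W] (F : M → W) (ν : ℝ) (m : ℕ) (lT : ℝ → ℝ)
    (kap rl : ℝ) : Prop :=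
  ∀ (N : M → W) (b : OrthonormalBasis (Fin (finrank ℝ W)) ℝ W)
    (j : Fin (finrank ℝ W) → ℝ), NearData V F N b j ν → (∀ a, j a ^ 2 ≤ kap * (m + 1)) →
      AbsTail (volM V F) m F N lT (rl * hh (nrm (volM V F)) (diagonal j) (co b F) (co b N))

/-- the relative tail in a box -/
def TailB (V : Type*) [NormedAddCommGroup V] [InnerProductSpace ℝ V]
    [FiniteDimensional ℝ V] {W M : Type*}
    [NormedAddCommGroup W] [InnerProductSpace ℝ W] [FiniteDimensional ℝ W]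
    [TopologicalSpace M] [ChartedSpace V M]
    [MeasurableSpace V] [BorelSpace V] [MeasurableSpace M] [BorelSpace M]
    [MeasurableSpace W] [BorelSpace W] (F : M → W) (ν : ℝ) (m : ℕ) (lT : ℝ → ℝ)
    (h1 d1 rl : ℝ) : Prop :=
  ∀ (N : M → W) (b : OrthonormalBasis (Fin (finrank ℝ W)) ℝ W)
    (j : Fin (finrank ℝ W) → ℝ), NearData V F N b j ν →
      hh (nrm (volM V F)) (diagonal j) (co b F) (co b N) ≤ h1 →
      √(fro (De (nrm (volM V F)) (co b F) (co b N))) ≤ d1 →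
      AbsTail (volM V F) m F N lT (rl * hh (nrm (volM V F)) (diagonal j) (co b F) (co b N))

lemma AbsTail_mono {m : ℕ} {F N : M → W} {lT : ℝ → ℝ} {ε ε' : ℝ}
    (h : AbsTail (volM V F) m F N lT ε) (he : ε ≤ ε') : AbsTail (volM V F) m F N lT ε' := by
  obtain ⟨τ, h1, h2, h3⟩ := h
  exact ⟨τ, h1, h2, h3.trans he⟩

/-- from the bound of the weights to the box -/
theorem tailB_of {F : M → W} {ν kap rl h1 d1 : ℝ} {m : ℕ} (hV : finrank ℝ V = m)
    {lT : ℝ → ℝ} (h : TailK V F ν m lT kap rl) (h0 : 0 ≤ d1) (hd1 : d1 < 1)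
    (hk : 1 + ((m : ℝ) + 2) * (d1 / (1 - d1)) ≤ kap * (m + 1)) : TailB V F ν m lT h1 d1 rl := by
  intro N b j hd hh1 hfd
  refine h N b j hd fun a => ?_
  have hf0 : 0 ≤ fro (De (nrm (volM V F)) (co b F) (co b N)) := fro_nonneg _
  have hfb : fro (De (nrm (volM V F)) (co b F) (co b N)) ≤ d1 ^ 2 := by
    rw [← Real.sq_sqrt hf0]
    exact pow_le_pow_left₀ (Real.sqrt_nonneg _) hfd 2
  have hm0 : (0 : ℝ) ≤ (finrank ℝ V : ℝ) := by positivity
  have k1 := hd.t0.w_le hm0 hd.lsq h0 hd1 hfb a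
  rw [hV] at k1
  linarith

/-- the bound of the weights in the box of the tables -/
lemma kap5 {m1 m : ℕ} (h2 : 2 ≤ m1) (h : m1 ≤ m) {kap : ℝ} (hk : 0 ≤ kap)
    (h1 : 1 + 6 * ((m1 : ℝ) + 2) / (5 * m1 - 6) ≤ kap * (m1 + 1)) :
    1 + ((m : ℝ) + 2) * (6 / (5 * (m : ℝ)) / (1 - 6 / (5 * (m : ℝ)))) ≤ kap * (m + 1) := by
  have a1 : (2 : ℝ) ≤ m1 := by exact_mod_cast h2
  have a2 : (m1 : ℝ) ≤ m := by exact_mod_cast h
  have p1 : (0 : ℝ) < 5 * m1 - 6 := by linarith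
  have p2 : (0 : ℝ) < 5 * m - 6 := by linarith
  have p3 : (0 : ℝ) < m := by linarith
  have e1 : ((m : ℝ) + 2) * (6 / (5 * (m : ℝ)) / (1 - 6 / (5 * (m : ℝ))))
      = 6 * ((m : ℝ) + 2) / (5 * m - 6) := by
    have : (1 - 6 / (5 * (m : ℝ))) = (5 * m - 6) / (5 * m) := by
      field_simp
    rw [this, div_div_div_cancel_right₀ (by positivity)]
    ring
  have e2 : 6 * ((m : ℝ) + 2) / (5 * m - 6) ≤ 6 * ((m1 : ℝ) + 2) / (5 * m1 - 6) := by
    rw [div_le_div_iff₀ p2 p1]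
    nlinarith
  rw [e1]
  have e3 : kap * (m1 + 1) ≤ kap * (m + 1) := mul_le_mul_of_nonneg_left (by linarith) hk
  linarith

/-- the bound of the weights in the box of the uniform part -/
lemma kap1 {m1 m : ℕ} (h7 : 7 ≤ m1) (h : m1 ≤ m) {kap : ℝ} (hk : 0 ≤ kap)
    (h1 : 1 + 6 * ((m1 : ℝ) + 2) / (m1 - 6) ≤ kap * (m1 + 1)) :
    1 + ((m : ℝ) + 2) * (6 / (m : ℝ) / (1 - 6 / (m : ℝ))) ≤ kap * (m + 1) := by
  have a1 : (7 : ℝ) ≤ m1 := by exact_mod_cast h7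
  have a2 : (m1 : ℝ) ≤ m := by exact_mod_cast h
  have p1 : (0 : ℝ) < m1 - 6 := by linarith
  have p2 : (0 : ℝ) < m - 6 := by linarith
  have p3 : (0 : ℝ) < m := by linarith
  have e1 : ((m : ℝ) + 2) * (6 / (m : ℝ) / (1 - 6 / (m : ℝ)))
      = 6 * ((m : ℝ) + 2) / (m - 6) := by
    have : (1 - 6 / (m : ℝ)) = (m - 6) / m := by
      field_simp
    rw [this, div_div_div_cancel_right₀ (by positivity)]
    ring
  have e2 : 6 * ((m : ℝ) + 2) / (m - 6) ≤ 6 * ((m1 : ℝ) + 2) / (m1 - 6) := by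
    rw [div_le_div_iff₀ p2 p1]
    nlinarith
  rw [e1]
  have e3 : kap * (m1 + 1) ≤ kap * (m + 1) := mul_le_mul_of_nonneg_left (by linarith) hk
  linarith

/-- **the relative tail in the box of the tables** -/
theorem tailB_tab {F : M → W} {ν kap rl h1 : ℝ} {m1 m : ℕ} (hV : finrank ℝ V = m)
    {lT : ℝ → ℝ} (h : TailK V F ν m lT kap rl) (h2 : 2 ≤ m1) (hm : m1 ≤ m) (hk : 0 ≤ kap)
    (hk1 : 1 + 6 * ((m1 : ℝ) + 2) / (5 * m1 - 6) ≤ kap * (m1 + 1)) :
    TailB V F ν m lT h1 (6 / (5 * (m : ℝ))) rl := by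
  have a1 : (2 : ℝ) ≤ m := by exact_mod_cast h2.trans hm
  refine tailB_of hV h (by positivity) ?_ (kap5 h2 hm hk hk1)
  rw [div_lt_one (by positivity)]
  linarith

/-- **the relative tail in the box of the uniform part** -/
theorem tailB_uni {F : M → W} {ν kap rl h1 : ℝ} {m1 m : ℕ} (hV : finrank ℝ V = m)
    {lT : ℝ → ℝ} (h : TailK V F ν m lT kap rl) (h7 : 7 ≤ m1) (hm : m1 ≤ m) (hk : 0 ≤ kap)
    (hk1 : 1 + 6 * ((m1 : ℝ) + 2) / (m1 - 6) ≤ kap * (m1 + 1)) :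
    TailB V F ν m lT h1 (6 / (m : ℝ)) rl := by
  have a1 : (7 : ℝ) ≤ m := by exact_mod_cast h7.trans hm
  refine tailB_of hV h (by positivity) ?_ (kap1 h7 hm hk hk1)
  rw [div_lt_one (by positivity)]
  linarith

end

end Vale.Agent.P224.R2.H581
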